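import Mathlib

/-!
Discrete action functional: between a sub-solution and a super-solution of the
second order recurrence `x (n-1) + x (n+1) = g (x n)` there is a genuine solution.
-/

open Set

namespace Vale.Agent.Lib.P108

/-- One dimensional first order condition on an interval with inward pointing ends. -/
theorem crit_of_min (g Φ : ℝ → ℝ) (hΦ : ∀ t, HasDerivAt Φ (g t) t)
    (lo hi c z : ℝ) (hz : z ∈ Icc lo hi)
    (hmin : ∀ t ∈ Icc lo hi, Φ z - c * z ≤ Φ t - c * t)
    (h1 : g lo ≤ c) (h2 : c ≤ g hi) : g z = c := by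
  have hd : ∀ t, HasDerivAt (fun t => Φ t - c * t) (g t - c) t := by
    intro t
    have := (hΦ t).fun_sub ((hasDerivAt_id' t).const_mul c)
    simpa using this
  rcases hz with ⟨hz1, hz2⟩
  rcases eq_or_lt_of_le hz1 with rfl | hz1'
  · -- left end
    by_contra hne
    have hlt : g lo < c := lt_of_le_of_ne h1 hne
    rcases eq_or_lt_of_le hz2 with rfl | hz2'
    · exact hne (le_antisymm h1 h2)
    have hslope := (hasDerivAt_iff_tendsto_slope.1 (hd lo))
    have hneg : g lo - c < 0 := by linarith
    have hev := hslope.eventually (gt_mem_nhds hneg)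
    have hev2 : ∀ᶠ t in nhdsWithin lo (Ioi lo), slope (fun t => Φ t - c * t) lo t < 0 :=
      hev.filter_mono (nhdsWithin_mono _ (fun t ht => ne_of_gt ht))
    have hev3 : ∀ᶠ t in nhdsWithin lo (Ioi lo), t < hi :=
      eventually_nhdsWithin_of_eventually_nhds (gt_mem_nhds hz2')
    obtain ⟨t, ht1, ht2, ht3⟩ :=
      (hev2.and (hev3.and self_mem_nhdsWithin)).exists
    have hpos : 0 < t - lo := sub_pos.2 ht3
    have h3 := hmin t ⟨le_of_lt ht3, le_of_lt ht2⟩
    rw [slope_def_field] at ht1
    rw [div_neg_iff] at ht1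
    rcases ht1 with ⟨_, h⟩ | ⟨h, _⟩
    · linarith
    · linarith
  rcases eq_or_lt_of_le hz2 with rfl | hz2'
  · -- right end
    by_contra hne
    have hlt : c < g z := lt_of_le_of_ne h2 (Ne.symm hne)
    have hslope := (hasDerivAt_iff_tendsto_slope.1 (hd z))
    have hpos' : 0 < g z - c := by linarith
    have hev := hslope.eventually (lt_mem_nhds hpos')
    have hev2 : ∀ᶠ t in nhdsWithin z (Iio z), 0 < slope (fun t => Φ t - c * t) z t :=
      hev.filter_mono (nhdsWithin_mono _ (fun t ht => ne_of_lt ht))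
    have hev3 : ∀ᶠ t in nhdsWithin z (Iio z), lo < t :=
      eventually_nhdsWithin_of_eventually_nhds (lt_mem_nhds hz1')
    obtain ⟨t, ht1, ht2, ht3⟩ :=
      (hev2.and (hev3.and self_mem_nhdsWithin)).exists
    have hneg : t - z < 0 := sub_neg.2 ht3
    have h3 := hmin t ⟨le_of_lt ht2, le_of_lt ht3⟩
    rw [slope_def_field] at ht1
    rw [div_pos_iff] at ht1
    rcases ht1 with ⟨_, h⟩ | ⟨h, _⟩
    · linarith
    · linarith
  · -- interior
    have hloc : IsLocalMin (fun t => Φ t - c * t) z := by
      have hmem : Icc lo hi ∈ nhds z := Icc_mem_nhds hz1' hz2'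
      filter_upwards [hmem] with t ht
      exact hmin t ht
    have := hloc.hasDerivAt_eq_zero (hd z)
    linarith

/-- The discrete action. -/
noncomputable def action (Φ : ℝ → ℝ) (N : ℕ) (x : ℕ → ℝ) : ℝ :=
  ∑ i ∈ Finset.range (N + 1), Φ (x i) - ∑ i ∈ Finset.range N, x i * x (i + 1)

theorem action_update (Φ : ℝ → ℝ) (N n : ℕ) (hn : n + 1 < N) (x : ℕ → ℝ) (t : ℝ) :
    action Φ N (Function.update x (n + 1) t) =
      action Φ N x + (Φ t - Φ (x (n + 1))) - (t - x (n + 1)) * (x n + x (n + 2)) := by
  set y := Function.update x (n + 1) t with hy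
  have h1 : ∀ i, Φ (y i) - Φ (x i) =
      if i = n + 1 then Φ t - Φ (x (n + 1)) else 0 := by
    intro i
    by_cases hi : i = n + 1
    · subst hi; simp [hy]
    · simp [hy, hi]
  have h2 : ∀ i, y i * y (i + 1) - x i * x (i + 1) =
      (if i = n then (t - x (n + 1)) * x n else 0) +
      (if i = n + 1 then (t - x (n + 1)) * x (n + 2) else 0) := by
    intro i
    by_cases hi : i = n
    · subst hi
      simp [hy]
      ring
    · by_cases hi' : i = n + 1
      · subst hi'
        have hne : n + 1 + 1 ≠ n + 1 := by omega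
        simp [hy]
        ring
      · have hne : i + 1 ≠ n + 1 := by omega
        simp [hy, hi, hi']
  have s1 : ∑ i ∈ Finset.range (N + 1), Φ (y i) - ∑ i ∈ Finset.range (N + 1), Φ (x i)
      = Φ t - Φ (x (n + 1)) := by
    rw [← Finset.sum_sub_distrib, Finset.sum_congr rfl (fun i _ => h1 i), Finset.sum_ite_eq']
    simp only [Finset.mem_range]
    rw [if_pos (by omega)]
  have s2 : ∑ i ∈ Finset.range N, y i * y (i + 1) - ∑ i ∈ Finset.range N, x i * x (i + 1)
      = (t - x (n + 1)) * x n + (t - x (n + 1)) * x (n + 2) := by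
    rw [← Finset.sum_sub_distrib, Finset.sum_congr rfl (fun i _ => h2 i), Finset.sum_add_distrib,
      Finset.sum_ite_eq', Finset.sum_ite_eq']
    simp only [Finset.mem_range]
    rw [if_pos (by omega), if_pos (by omega)]
  unfold action
  linarith

theorem continuous_action (Φ : ℝ → ℝ) (hΦ : Continuous Φ) (N : ℕ) : Continuous (action Φ N) := by
  unfold action
  apply Continuous.sub
  · exact continuous_finsetSum _ (fun i _ => hΦ.comp (continuous_apply i))
  · exact continuous_finsetSum _ (fun i _ =>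
      (continuous_apply i).mul (continuous_apply (i + 1)))

/-- Between a sub-solution `a` and a super-solution `b` of the recurrence there is a solution. -/
theorem exists_solution (g Φ : ℝ → ℝ) (hΦ : ∀ t, HasDerivAt Φ (g t) t) (N : ℕ) (a b : ℕ → ℝ)
    (hab : ∀ n, a n ≤ b n)
    (hlo : ∀ n, n + 1 < N → g (a (n + 1)) ≤ a n + a (n + 2))
    (hhi : ∀ n, n + 1 < N → b n + b (n + 2) ≤ g (b (n + 1))) :
    ∃ x : ℕ → ℝ, (∀ n, a n ≤ x n ∧ x n ≤ b n) ∧
      ∀ n, n + 1 < N → x n + x (n + 2) = g (x (n + 1)) := by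
  have hcont : Continuous Φ := continuous_iff_continuousAt.2 (fun t => (hΦ t).continuousAt)
  set box : Set (ℕ → ℝ) := Set.pi univ (fun n => Icc (a n) (b n)) with hbox
  have hcomp : IsCompact box := isCompact_univ_pi (fun n => isCompact_Icc)
  have hne : box.Nonempty := ⟨a, fun n _ => ⟨le_refl _, hab n⟩⟩
  obtain ⟨x, hx, hmin⟩ := hcomp.exists_isMinOn hne (continuous_action Φ hcont N).continuousOn
  have hxn : ∀ n, x n ∈ Icc (a n) (b n) := fun n => hx n (mem_univ n)
  refine ⟨x, fun n => hxn n, ?_⟩
  intro n hn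
  have h1 : g (x (n + 1)) = x n + x (n + 2) := by
    apply crit_of_min g Φ hΦ (a (n + 1)) (b (n + 1)) (x n + x (n + 2)) (x (n + 1)) (hxn _)
    · intro t ht
      have hy : Function.update x (n + 1) t ∈ box := by
        intro i _
        by_cases hi : i = n + 1
        · subst hi; simpa using ht
        · simpa [hi] using hxn i
      have := hmin hy
      simp only [mem_ofPred_eq] at this
      rw [action_update Φ N n hn x t] at this
      nlinarith
    · calc g (a (n + 1)) ≤ a n + a (n + 2) := hlo n hn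
        _ ≤ _ := add_le_add (hxn n).1 (hxn (n + 2)).1
    · calc x n + x (n + 2) ≤ b n + b (n + 2) := add_le_add (hxn n).2 (hxn (n + 2)).2
        _ ≤ _ := hhi n hn
  exact h1.symm

end Vale.Agent.Lib.P108
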