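import Mathlib

/-!
A lower bound for Mathlib's topological entropy from separated sets.
-/

open Set Filter

namespace Vale.Agent.Lib.P108

theorem coverEntropy_ge_of_separated {X : Type*} [PseudoMetricSpace X] (T : X → X) (L : ℕ)
    (hL : 0 < L) (ε : ℝ) (hε : 0 < ε)
    (h : ∀ m : ℕ, ∃ s : Finset X, 2 ^ m ≤ s.card ∧ ∀ x ∈ s, ∀ y ∈ s, x ≠ y →
      ∃ i < L * m, 2 * ε ≤ dist (T^[i] x) (T^[i] y)) :
    ((Real.log 2 / L : ℝ) : EReal) ≤ Dynamics.coverEntropy T univ := by
  set U : SetRel X X := {q : X × X | dist q.1 q.2 < ε} with hU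
  have hUmem : U ∈ uniformity X := Metric.dist_mem_uniformity hε
  refine le_trans ?_ (Dynamics.netEntropyEntourage_le_coverEntropy (T := T) (F := univ) hUmem)
  have hnet : ∀ m : ℕ, ((2 ^ m : ℕ) : ℕ∞) ≤ Dynamics.netMaxcard T univ U (L * m) := by
    intro m
    obtain ⟨s, hcard, hsep⟩ := h m
    have hs : Dynamics.IsDynNetIn T univ U (L * m) (s : Set X) := by
      refine ⟨subset_univ _, ?_⟩
      intro x hx y hy hxy
      refine Set.disjoint_left.2 (fun z hzx hzy => ?_)
      obtain ⟨i, hi, hd⟩ := hsep x hx y hy hxy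
      have h1 := (Dynamics.mem_ball_dynEntourage.1 hzx) i hi
      have h2 := (Dynamics.mem_ball_dynEntourage.1 hzy) i hi
      have h1' : dist (T^[i] x) (T^[i] z) < ε := h1
      have h2' : dist (T^[i] y) (T^[i] z) < ε := h2
      have := dist_triangle_right (T^[i] x) (T^[i] y) (T^[i] z)
      linarith
    exact le_trans (by exact_mod_cast hcard) hs.card_le_netMaxcard
  unfold Dynamics.netEntropyEntourage ExpGrowth.expGrowthSup
  apply Filter.le_limsup_of_frequently_le
  · refine Filter.frequently_atTop.2 (fun a => ⟨L * (a + 1), ?_, ?_⟩)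
    · nlinarith
    · set m := a + 1 with hm
      have hn : 0 < L * m := by positivity
      have hcast : ((L * m : ℕ) : EReal) = ((L * m : ℕ) : ℝ) := by simp
      rw [EReal.le_div_iff_mul_le (by exact_mod_cast hn) (by rw [hcast]; exact EReal.coe_ne_top _)]
      have hlog : ((m : ℝ) * Real.log 2 : ℝ) ≤ ENNReal.log ((Dynamics.netMaxcard T univ U (L * m) : ℕ∞) : ENNReal) := by
        have h2 : ENNReal.log ((2 : ENNReal) ^ m) ≤ ENNReal.log ((Dynamics.netMaxcard T univ U (L * m) : ℕ∞) : ENNReal) := by
          apply ENNReal.log_le_log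
          have := ENat.toENNReal_mono (hnet m)
          simpa using this
        refine le_trans (le_of_eq ?_) h2
        rw [ENNReal.log_pow]
        have : ENNReal.log 2 = ((Real.log 2 : ℝ) : EReal) := by
          have := ENNReal.log_ofReal_of_pos (x := 2) (by norm_num)
          simpa using this
        rw [this]
        simp
      refine le_trans (le_of_eq ?_) hlog
      rw [hcast, ← EReal.coe_mul]
      congr 1
      have hL' : (L : ℝ) ≠ 0 := by positivity
      push_cast
      field_simp
  · exact Filter.isBoundedUnder_of ⟨⊤, fun _ => le_top⟩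

end Vale.Agent.Lib.P108
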