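import Vale.Agent.Lib.P108.Action
import Vale.Agent.Lib.P108.Entropy

/-!
Sub- and super-solutions for the standard map recurrence: a horseshoe for `k ≥ 1/2`.
-/

open Set Real

namespace Vale.Agent.Lib.P108

/-- Right hand side of the recurrence `x (n-1) + x (n+1) = gk k (x n)`. -/
noncomputable def gk (k x : ℝ) : ℝ := 2 * x + k * sin (2 * π * x)

/-- Antiderivative of `gk`. -/
noncomputable def Phik (k x : ℝ) : ℝ := x ^ 2 - k / (2 * π) * cos (2 * π * x)

theorem hasDerivAt_Phik (k t : ℝ) : HasDerivAt (Phik k) (gk k t) t := by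
  have hπ : (2 * π) ≠ 0 := by positivity
  have h1 : HasDerivAt (fun x : ℝ => x ^ 2) (2 * t) t := by
    simpa using hasDerivAt_pow 2 t
  have h2 : HasDerivAt (fun x : ℝ => cos (2 * π * x)) (-sin (2 * π * t) * (2 * π * 1)) t :=
    ((hasDerivAt_id' t).const_mul (2 * π)).cos
  have h3 := h1.fun_sub (h2.const_mul (k / (2 * π)))
  refine HasDerivAt.congr_deriv h3 ?_
  unfold gk
  field_simp
  ring

theorem gk_int_add (k : ℝ) (J : ℤ) (u : ℝ) : gk k ((J : ℝ) + u) = 2 * J + gk k u := by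
  unfold gk
  have : sin (2 * π * ((J : ℝ) + u)) = sin (2 * π * u) := by
    rw [show 2 * π * ((J : ℝ) + u) = 2 * π * u + J * (2 * π) by ring]
    exact Real.sin_add_int_mul_two_pi _ _
  rw [this]
  ring

theorem gk_neg (k x : ℝ) : gk k (-x) = - gk k x := by
  unfold gk
  rw [show 2 * π * (-x) = -(2 * π * x) by ring, Real.sin_neg]
  ring

theorem gk_quarter (k : ℝ) : gk k (1 / 4) = 1 / 2 + k := by
  unfold gk
  rw [show 2 * π * (1 / 4) = π / 2 by ring, Real.sin_pi_div_two]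
  ring

/-- For `k ≥ 1/2` the level `1/2` of `gk` is reached at some `p` in `(0, 1/8]`. -/
theorem exists_p (k : ℝ) (hk : 1 / 2 ≤ k) :
    ∃ p : ℝ, 0 < p ∧ p ≤ 1 / 8 ∧ gk k p = 1 / 2 := by
  have hcont : ContinuousOn (gk k) (Icc 0 (1 / 8)) := by
    apply Continuous.continuousOn
    unfold gk
    fun_prop
  have h0 : gk k 0 = 0 := by simp [gk]
  have h1 : 1 / 2 ≤ gk k (1 / 8) := by
    unfold gk
    rw [show 2 * π * (1 / 8) = π / 4 by ring, Real.sin_pi_div_four]
    have hs : (1 : ℝ) ≤ √2 := by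
      rw [show (1 : ℝ) = √1 by simp]
      exact Real.sqrt_le_sqrt (by norm_num)
    nlinarith
  obtain ⟨p, hp, hpv⟩ := intermediate_value_Icc (by norm_num) hcont
    (show (1 / 2 : ℝ) ∈ Icc (gk k 0) (gk k (1 / 8)) by rw [h0]; exact ⟨by norm_num, h1⟩)
  refine ⟨p, ?_, hp.2, hpv⟩
  rcases eq_or_lt_of_le hp.1 with h | h
  · rw [← h, h0] at hpv
    norm_num at hpv
  · exact h

/-- Sign of a bit. -/
def sgn (b : Bool) : ℤ := if b then 1 else -1

/-- Integer part of the orbit at the start of block `l`. -/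
def J (w : ℕ → Bool) (l : ℕ) : ℤ := ∑ i ∈ Finset.range l, sgn (w i)

theorem J_succ (w : ℕ → Bool) (l : ℕ) : J w (l + 1) = J w l + sgn (w l) :=
  Finset.sum_range_succ _ _

/-- Lower barrier. -/
noncomputable def lowB (w : ℕ → Bool) (p : ℝ) (n : ℕ) : ℝ :=
  if n % 3 = 0 then (J w (n / 3) : ℝ) - p
  else if n % 3 = 1 then (if w (n / 3) then (J w (n / 3) : ℝ) + p else (J w (n / 3) : ℝ) - 1 / 4)
  else (if w (n / 3) then (J w (n / 3) : ℝ) + 3 / 4 else (J w (n / 3) : ℝ) - 1 + p)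

/-- Upper barrier. -/
noncomputable def upB (w : ℕ → Bool) (p : ℝ) (n : ℕ) : ℝ :=
  if n % 3 = 0 then (J w (n / 3) : ℝ) + p
  else if n % 3 = 1 then (if w (n / 3) then (J w (n / 3) : ℝ) + 1 / 4 else (J w (n / 3) : ℝ) - p)
  else (if w (n / 3) then (J w (n / 3) : ℝ) + 1 - p else (J w (n / 3) : ℝ) - 3 / 4)

theorem lowB_0 (w : ℕ → Bool) (p : ℝ) (l : ℕ) : lowB w p (3 * l) = (J w l : ℝ) - p := by
  have h1 : (3 * l) % 3 = 0 := by omega
  have h2 : (3 * l) / 3 = l := by omega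
  simp [lowB, h1, h2]

theorem lowB_1 (w : ℕ → Bool) (p : ℝ) (l : ℕ) : lowB w p (3 * l + 1) =
    if w l then (J w l : ℝ) + p else (J w l : ℝ) - 1 / 4 := by
  have h1 : (3 * l + 1) % 3 = 1 := by omega
  have h2 : (3 * l + 1) / 3 = l := by omega
  simp [lowB, h1, h2]

theorem lowB_2 (w : ℕ → Bool) (p : ℝ) (l : ℕ) : lowB w p (3 * l + 2) =
    if w l then (J w l : ℝ) + 3 / 4 else (J w l : ℝ) - 1 + p := by
  have h1 : (3 * l + 2) % 3 = 2 := by omega
  have h2 : (3 * l + 2) / 3 = l := by omega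
  simp [lowB, h1, h2]

theorem upB_0 (w : ℕ → Bool) (p : ℝ) (l : ℕ) : upB w p (3 * l) = (J w l : ℝ) + p := by
  have h1 : (3 * l) % 3 = 0 := by omega
  have h2 : (3 * l) / 3 = l := by omega
  simp [upB, h1, h2]

theorem upB_1 (w : ℕ → Bool) (p : ℝ) (l : ℕ) : upB w p (3 * l + 1) =
    if w l then (J w l : ℝ) + 1 / 4 else (J w l : ℝ) - p := by
  have h1 : (3 * l + 1) % 3 = 1 := by omega
  have h2 : (3 * l + 1) / 3 = l := by omega
  simp [upB, h1, h2]

theorem upB_2 (w : ℕ → Bool) (p : ℝ) (l : ℕ) : upB w p (3 * l + 2) =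
    if w l then (J w l : ℝ) + 1 - p else (J w l : ℝ) - 3 / 4 := by
  have h1 : (3 * l + 2) % 3 = 2 := by omega
  have h2 : (3 * l + 2) / 3 = l := by omega
  simp [upB, h1, h2]

theorem n_cases (n : ℕ) : ∃ l, n = 3 * l ∨ n = 3 * l + 1 ∨ n = 3 * l + 2 :=
  ⟨n / 3, by omega⟩

theorem low_le_up (w : ℕ → Bool) (p : ℝ) (hp0 : 0 < p) (hp : p ≤ 1 / 8) (n : ℕ) :
    lowB w p n ≤ upB w p n := by
  obtain ⟨l, rfl | rfl | rfl⟩ := n_cases n
  · rw [lowB_0, upB_0]; linarith
  · rw [lowB_1, upB_1]; split_ifs <;> linarith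
  · rw [lowB_2, upB_2]; split_ifs <;> linarith

/-- Evaluation of `gk` at shifted points. -/
theorem gk_plus (k p : ℝ) (hG : gk k p = 1 / 2) (j : ℤ) :
    gk k ((j : ℝ) + p) = 2 * j + 1 / 2 := by
  rw [gk_int_add, hG]

theorem gk_minus (k p : ℝ) (hG : gk k p = 1 / 2) (j : ℤ) :
    gk k ((j : ℝ) - p) = 2 * j - 1 / 2 := by
  rw [sub_eq_add_neg, gk_int_add, gk_neg, hG]
  ring

theorem gk_pq (k : ℝ) (j : ℤ) : gk k ((j : ℝ) + 1 / 4) = 2 * j + 1 / 2 + k := by
  rw [gk_int_add, gk_quarter]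
  ring

theorem gk_mq (k : ℝ) (j : ℤ) : gk k ((j : ℝ) - 1 / 4) = 2 * j - 1 / 2 - k := by
  rw [sub_eq_add_neg, gk_int_add, show (-(1 / 4) : ℝ) = -(1 / 4) by ring, gk_neg, gk_quarter]
  ring

theorem hlo_all (k p : ℝ) (hk : 1 / 2 ≤ k) (hp0 : 0 < p) (hp : p ≤ 1 / 8) (hG : gk k p = 1 / 2)
    (w : ℕ → Bool) (n : ℕ) :
    gk k (lowB w p (n + 1)) ≤ lowB w p n + lowB w p (n + 2) := by
  obtain ⟨l, rfl | rfl | rfl⟩ := n_cases n
  · rw [lowB_0, lowB_1, lowB_2]
    cases hw : w l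
    · simp only [Bool.false_eq_true, if_false]
      rw [gk_mq]
      linarith
    · simp only [if_true]
      rw [gk_plus k p hG]
      linarith
  · rw [show 3 * l + 1 + 1 = 3 * l + 2 by ring, show 3 * l + 1 + 2 = 3 * (l + 1) by ring,
      lowB_1, lowB_2, lowB_0, J_succ]
    cases hw : w l
    · simp only [Bool.false_eq_true, if_false, sgn]
      have h : gk k ((J w l : ℝ) - 1 + p) = 2 * ((J w l : ℝ) - 1) + 1 / 2 := by
        have := gk_plus k p hG (J w l - 1)
        push_cast at this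
        exact this
      rw [h]
      push_cast
      linarith
    · simp only [if_true, sgn]
      have h : gk k ((J w l : ℝ) + 3 / 4) = 2 * ((J w l : ℝ) + 1) - 1 / 2 - k := by
        have := gk_mq k (J w l + 1)
        push_cast at this
        rw [← this]
        congr 1
        ring
      rw [h]
      push_cast
      linarith
  · rw [show 3 * l + 2 + 1 = 3 * (l + 1) by ring, show 3 * l + 2 + 2 = 3 * (l + 1) + 1 by ring,
      lowB_2, lowB_0, lowB_1, J_succ]
    rw [gk_minus k p hG]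
    cases hw : w l <;> cases hw' : w (l + 1) <;>
      simp only [Bool.false_eq_true, if_false, if_true, sgn] <;> push_cast <;> linarith

theorem hhi_all (k p : ℝ) (hk : 1 / 2 ≤ k) (hp0 : 0 < p) (hp : p ≤ 1 / 8) (hG : gk k p = 1 / 2)
    (w : ℕ → Bool) (n : ℕ) :
    upB w p n + upB w p (n + 2) ≤ gk k (upB w p (n + 1)) := by
  obtain ⟨l, rfl | rfl | rfl⟩ := n_cases n
  · rw [upB_0, upB_1, upB_2]
    cases hw : w l
    · simp only [Bool.false_eq_true, if_false]
      rw [gk_minus k p hG]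
      linarith
    · simp only [if_true]
      rw [gk_pq]
      linarith
  · rw [show 3 * l + 1 + 1 = 3 * l + 2 by ring, show 3 * l + 1 + 2 = 3 * (l + 1) by ring,
      upB_1, upB_2, upB_0, J_succ]
    cases hw : w l
    · simp only [Bool.false_eq_true, if_false, sgn]
      have h : gk k ((J w l : ℝ) - 3 / 4) = 2 * ((J w l : ℝ) - 1) + 1 / 2 + k := by
        have := gk_pq k (J w l - 1)
        push_cast at this
        rw [← this]
        congr 1
        ring
      rw [h]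
      push_cast
      linarith
    · simp only [if_true, sgn]
      have h : gk k ((J w l : ℝ) + 1 - p) = 2 * ((J w l : ℝ) + 1) - 1 / 2 := by
        have := gk_minus k p hG (J w l + 1)
        push_cast at this
        exact this
      rw [h]
      push_cast
      linarith
  · rw [show 3 * l + 2 + 1 = 3 * (l + 1) by ring, show 3 * l + 2 + 2 = 3 * (l + 1) + 1 by ring,
      upB_2, upB_0, upB_1, J_succ]
    rw [gk_plus k p hG]
    cases hw : w l <;> cases hw' : w (l + 1) <;>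
      simp only [Bool.false_eq_true, if_false, if_true, sgn] <;> push_cast <;> linarith

/-- Every bit sequence is followed by a finite orbit segment of the recurrence. -/
theorem exists_orbit (k p : ℝ) (hk : 1 / 2 ≤ k) (hp0 : 0 < p) (hp : p ≤ 1 / 8)
    (hG : gk k p = 1 / 2) (w : ℕ → Bool) (N : ℕ) :
    ∃ x : ℕ → ℝ, (∀ n, lowB w p n ≤ x n ∧ x n ≤ upB w p n) ∧
      ∀ n, n + 1 < N → x n + x (n + 2) = gk k (x (n + 1)) :=
  exists_solution (gk k) (Phik k) (hasDerivAt_Phik k) N (lowB w p) (upB w p)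
    (low_le_up w p hp0 hp) (fun n _ => hlo_all k p hk hp0 hp hG w n)
    (fun n _ => hhi_all k p hk hp0 hp hG w n)

end Vale.Agent.Lib.P108
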