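import Vale.Agent.Lib.P108.Horseshoe

/-!
From orbit segments of the recurrence to separated sets of the standard map on the torus.
-/

open Set Real

namespace Vale.Agent.Lib.P108

theorem iterate_orbit (k : ℝ)
    (T : UnitAddCircle × UnitAddCircle → UnitAddCircle × UnitAddCircle)
    (hT : ∀ x y : ℝ, T ((x : UnitAddCircle), (y : UnitAddCircle)) =
      (((x + y + k * sin (2 * π * x) : ℝ) : UnitAddCircle),
       ((y + k * sin (2 * π * x) : ℝ) : UnitAddCircle)))
    (y : ℕ → ℝ) (N : ℕ)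
    (hy : ∀ n, n + 1 < N → y n + y (n + 2) = 2 * y (n + 1) + k * sin (2 * π * y (n + 1))) :
    ∀ i, i < N → T^[i] ((y 1 : UnitAddCircle), ((y 1 - y 0 : ℝ) : UnitAddCircle)) =
      ((y (i + 1) : UnitAddCircle), ((y (i + 1) - y i : ℝ) : UnitAddCircle)) := by
  intro i
  induction i with
  | zero => intro _; simp
  | succ i ih =>
    intro hi
    rw [Function.iterate_succ_apply', ih (by omega), hT]
    have h := hy i hi
    have h1 : y (i + 1) + (y (i + 1) - y i) + k * sin (2 * π * y (i + 1)) = y (i + 1 + 1) := by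
      have : i + 1 + 1 = i + 2 := rfl
      rw [this]
      linarith
    have h2 : (y (i + 1) - y i) + k * sin (2 * π * y (i + 1)) = y (i + 1 + 1) - y (i + 1) := by
      have : i + 1 + 1 = i + 2 := rfl
      rw [this]
      linarith
    rw [h1, h2]

theorem coe_int_add (m : ℤ) (e : ℝ) : (((m : ℝ) + e : ℝ) : UnitAddCircle) = (e : UnitAddCircle) := by
  rw [AddCircle.coe_add]
  have : (((m : ℝ) : ℝ) : UnitAddCircle) = 0 := by
    rw [AddCircle.coe_eq_zero_iff]
    exact ⟨m, by simp⟩
  rw [this, zero_add]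

theorem sep_norm (a b p : ℝ) (ja jb : ℤ) (hp : p ≤ 1 / 8)
    (ha : (ja : ℝ) + p ≤ a) (ha' : a ≤ (ja : ℝ) + 1 / 4)
    (hb : (jb : ℝ) - 1 / 4 ≤ b) (hb' : b ≤ (jb : ℝ) - p) (hp0 : 0 < p) (δ : ℝ) :
    2 * p ≤ dist (((a + δ : ℝ) : UnitAddCircle)) (((b + δ : ℝ) : UnitAddCircle)) := by
  have h1 : a + δ - (b + δ) = ((ja - jb : ℤ) : ℝ) + (a - (ja : ℝ) - (b - (jb : ℝ))) := by
    push_cast
    ring
  set e := a - (ja : ℝ) - (b - (jb : ℝ)) with he
  have he1 : 2 * p ≤ e := by rw [he]; linarith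
  have he2 : e ≤ 1 / 2 := by rw [he]; linarith
  have habs : |e| = e := abs_of_nonneg (by linarith)
  rw [dist_eq_norm, ← AddCircle.coe_sub, h1, coe_int_add]
  have hnorm : ‖(e : UnitAddCircle)‖ = |e| := by
    rw [AddCircle.norm_coe_eq_abs_iff (p := (1 : ℝ)) one_ne_zero]
    rw [habs, abs_one]
    linarith
  rw [hnorm, habs]
  exact he1

theorem sin_shift (k x : ℝ) :
    k * sin (2 * π * (x + (if 0 ≤ k then 0 else 1 / 2))) = |k| * sin (2 * π * x) := by
  by_cases hk : 0 ≤ k
  · simp [hk, abs_of_nonneg hk]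
  · have hk' : k < 0 := not_le.1 hk
    simp only [hk, if_false]
    rw [abs_of_neg hk', show 2 * π * (x + 1 / 2) = 2 * π * x + π by ring, Real.sin_add_pi]
    ring

/-- Extension of a finite word to a bit sequence. -/
def extWord {m : ℕ} (f : Fin m → Bool) (i : ℕ) : Bool :=
  if h : i < m then f ⟨i, h⟩ else true

theorem entropy_lower (k : ℝ) (hk : 1 / 2 ≤ |k|)
    (T : UnitAddCircle × UnitAddCircle → UnitAddCircle × UnitAddCircle)
    (hT : ∀ x y : ℝ, T ((x : UnitAddCircle), (y : UnitAddCircle)) =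
      (((x + y + k * sin (2 * π * x) : ℝ) : UnitAddCircle),
       ((y + k * sin (2 * π * x) : ℝ) : UnitAddCircle))) :
    ((Real.log 2 / 3 : ℝ) : EReal) ≤ Dynamics.coverEntropy T univ := by
  classical
  obtain ⟨p, hp0, hp, hG⟩ := exists_p |k| hk
  set δ : ℝ := if 0 ≤ k then 0 else 1 / 2 with hδ
  have hmain := coverEntropy_ge_of_separated T 3 (by norm_num) p hp0 ?_
  · simpa using hmain
  intro m
  -- orbit of a word
  have horb : ∀ f : Fin m → Bool, ∃ x : ℕ → ℝ,
      (∀ n, lowB (extWord f) p n ≤ x n ∧ x n ≤ upB (extWord f) p n) ∧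
      ∀ n, n + 1 < 3 * m + 1 → x n + x (n + 2) = gk |k| (x (n + 1)) :=
    fun f => exists_orbit |k| p hk hp0 hp hG (extWord f) (3 * m + 1)
  choose x hxB hxR using horb
  set y : (Fin m → Bool) → ℕ → ℝ := fun f n => x f n + δ with hy
  have hyR : ∀ f n, n + 1 < 3 * m + 1 →
      y f n + y f (n + 2) = 2 * y f (n + 1) + k * sin (2 * π * y f (n + 1)) := by
    intro f n hn
    have h1 := hxR f n hn
    have h2 := sin_shift k (x f (n + 1))
    simp only [hy]
    rw [h2]
    unfold gk at h1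
    linarith
  set z : (Fin m → Bool) → UnitAddCircle × UnitAddCircle :=
    fun f => ((y f 1 : UnitAddCircle), ((y f 1 - y f 0 : ℝ) : UnitAddCircle)) with hz
  have hit : ∀ f i, i < 3 * m + 1 → T^[i] (z f) =
      ((y f (i + 1) : UnitAddCircle), ((y f (i + 1) - y f i : ℝ) : UnitAddCircle)) :=
    fun f i hi => iterate_orbit k T hT (y f) (3 * m + 1) (hyR f) i hi
  -- separation
  have hsep1 : ∀ f g : Fin m → Bool, ∀ l : Fin m, f l = true → g l = false →
      2 * p ≤ dist (T^[3 * (l : ℕ)] (z f)) (T^[3 * (l : ℕ)] (z g)) := by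
    intro f g l hf hg
    have hl := l.2
    rw [hit f _ (by omega), hit g _ (by omega)]
    refine le_trans ?_ (le_of_le_of_eq (le_max_left _ _) (Prod.dist_eq).symm)
    have hf' : extWord f l = true := by simp [extWord, hl, hf]
    have hg' : extWord g l = false := by simp [extWord, hl, hg]
    have b1 := hxB f (3 * (l : ℕ) + 1)
    have b2 := hxB g (3 * (l : ℕ) + 1)
    rw [lowB_1, upB_1, hf'] at b1
    rw [lowB_1, upB_1, hg'] at b2
    simp only [if_true, Bool.false_eq_true, if_false] at b1 b2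
    exact sep_norm _ _ p _ _ hp b1.1 b1.2 b2.1 b2.2 hp0 δ
  have hsep : ∀ f g : Fin m → Bool, f ≠ g → ∃ i < 3 * m, 2 * p ≤ dist (T^[i] (z f)) (T^[i] (z g)) := by
    intro f g hfg
    obtain ⟨l, hl⟩ := Function.ne_iff.1 hfg
    refine ⟨3 * (l : ℕ), by have := l.2; omega, ?_⟩
    cases hf : f l
    · have hg : g l = true := by
        cases hg : g l
        · exact absurd (hf.trans hg.symm) hl
        · rfl
      rw [dist_comm]
      exact hsep1 g f l hg hf
    · have hg : g l = false := by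
        cases hg : g l
        · rfl
        · exact absurd (hf.trans hg.symm) hl
      exact hsep1 f g l hf hg
  have hinj : Function.Injective z := by
    intro f g hfg
    by_contra hne
    obtain ⟨i, _, hd⟩ := hsep f g hne
    rw [hfg, dist_self] at hd
    linarith
  refine ⟨Finset.univ.image z, ?_, ?_⟩
  · rw [Finset.card_image_of_injective _ hinj]
    simp
  · intro a ha b hb hab
    obtain ⟨f, _, rfl⟩ := Finset.mem_image.1 ha
    obtain ⟨g, _, rfl⟩ := Finset.mem_image.1 hb
    have hfg : f ≠ g := fun h => hab (by rw [h])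
    exact hsep f g hfg

/-- The standard map exists on the torus. -/
theorem exists_stdMap (k : ℝ) :
    ∃ T : UnitAddCircle × UnitAddCircle → UnitAddCircle × UnitAddCircle,
      ∀ x y : ℝ, T ((x : UnitAddCircle), (y : UnitAddCircle)) =
        (((x + y + k * sin (2 * π * x) : ℝ) : UnitAddCircle),
         ((y + k * sin (2 * π * x) : ℝ) : UnitAddCircle)) := by
  have hper : Function.Periodic (fun x : ℝ => sin (2 * π * x)) (1 : ℝ) := by
    intro x
    show sin (2 * π * (x + 1)) = sin (2 * π * x)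
    rw [show 2 * π * (x + 1) = 2 * π * x + 2 * π by ring, Real.sin_add_two_pi]
  refine ⟨fun z => (z.1 + z.2 + ((k * hper.lift z.1 : ℝ) : UnitAddCircle),
    z.2 + ((k * hper.lift z.1 : ℝ) : UnitAddCircle)), ?_⟩
  intro x y
  have hl : hper.lift (x : UnitAddCircle) = sin (2 * π * x) := hper.lift_coe x
  simp only [hl]
  simp only [AddCircle.coe_add]

end Vale.Agent.Lib.P108
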